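/-
Helper42 — S0175 project, package TS-3: strictness (no Monge pair attains the two-shell value).
Density-doubling / parity argument in parameter space.

`ts_strict` is verbatim `Crest.Agent.Helper32.Spec.ts_strict` (interface of helper32); it uses the
package TS-B of helper62 (`Crest.Agent.Helper62.TwoShell.TSB`).  `ts_strict_of` is the same theorem
with the five TS-B facts as explicit hypotheses.
-/
import Crest.Agent.Helper32.TwoShellDefs
import Crest.Agent.Helper62.TwoShell.TSB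

set_option autoImplicit false
set_option linter.unusedSectionVars false
open MeasureTheory Set
open scoped ENNReal
open Crest.AnalysisR.OT
open Crest.Agent.Helper32

namespace Crest.Agent.Helper42

variable {E Y : Type*} [MeasurableSpace E] [StandardBorelSpace E] [MeasurableSpace Y]
  [StandardBorelSpace Y] (ν : Measure Y) [IsFiniteMeasure ν] (ΦA ΦB : Y × ℝ → E) (g : Y → ℝ)
  (c : E × E × E → ℝ≥0∞) (u : E → ℝ)

/-- `ofReal (∫ F) ≤ ∫⁻ ofReal F` for integrable `F`. -/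
theorem ofReal_integral_le_lintegral_ofReal' {α : Type*} [MeasurableSpace α] (μ : Measure α)
    (F : α → ℝ) (hF : Integrable F μ) :
    ENNReal.ofReal (∫ x, F x ∂μ) ≤ ∫⁻ x, ENNReal.ofReal (F x) ∂μ := by
  have hpos : Integrable (fun x => max (F x) 0) μ := hF.pos_part
  have h1 : ∫ x, F x ∂μ ≤ ∫ x, max (F x) 0 ∂μ :=
    integral_mono hF hpos (fun x => le_max_left _ _)
  have h2 : ENNReal.ofReal (∫ x, max (F x) 0 ∂μ) = ∫⁻ x, ENNReal.ofReal (max (F x) 0) ∂μ :=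
    ofReal_integral_eq_lintegral_ofReal hpos (Filter.Eventually.of_forall fun x => le_max_right _ _)
  have h3 : ∀ x, ENNReal.ofReal (max (F x) 0) = ENNReal.ofReal (F x) := by
    intro x
    rcases le_total 0 (F x) with h | h
    · rw [max_eq_left h]
    · rw [max_eq_right h, ENNReal.ofReal_zero, ENNReal.ofReal_of_nonpos h]
  calc ENNReal.ofReal (∫ x, F x ∂μ) ≤ ENNReal.ofReal (∫ x, max (F x) 0 ∂μ) :=
        ENNReal.ofReal_le_ofReal h1
    _ = ∫⁻ x, ENNReal.ofReal (max (F x) 0) ∂μ := h2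
    _ = ∫⁻ x, ENNReal.ofReal (F x) ∂μ := by simp_rw [h3]

/-- Step 1 of TS-3: if a Monge pair costs at most `tsVal`, then almost every triple
`(x, T₂ x, T₃ x)` is a contact triple. -/
theorem ts_contact_ae (h : TwoShellHyp ν ΦA ΦB g c u)
    (hae : ∀ᵐ x ∂(tsμ ν ΦA ΦB), x ∈ tsS ΦA ΦB)
    (hint : Integrable u (tsμ ν ΦA ΦB))
    (T₂ T₃ : E → E) (h₂ : Measurable T₂) (h₃ : Measurable T₃)
    (hT₂ : (tsμ ν ΦA ΦB).map T₂ = tsμ ν ΦA ΦB) (hT₃ : (tsμ ν ΦA ΦB).map T₃ = tsμ ν ΦA ΦB)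
    (hcon : ∫⁻ x, c (x, T₂ x, T₃ x) ∂(tsμ ν ΦA ΦB) ≤ tsVal ν ΦA ΦB u) :
    ∀ᵐ x ∂(tsμ ν ΦA ΦB),
      c (x, T₂ x, T₃ x) = ENNReal.ofReal (u x + u (T₂ x) + u (T₃ x)) ∧ T₃ x ∈ tsS ΦA ΦB := by
  have hS2 : ∀ᵐ x ∂(tsμ ν ΦA ΦB), T₂ x ∈ tsS ΦA ΦB :=
    ae_of_ae_map h₂.aemeasurable (by rw [hT₂]; exact hae)
  have hS3 : ∀ᵐ x ∂(tsμ ν ΦA ΦB), T₃ x ∈ tsS ΦA ΦB :=
    ae_of_ae_map h₃.aemeasurable (by rw [hT₃]; exact hae)
  have hint2 : Integrable (fun x => u (T₂ x)) (tsμ ν ΦA ΦB) := by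
    have : Integrable u ((tsμ ν ΦA ΦB).map T₂) := by rw [hT₂]; exact hint
    exact (integrable_map_measure h.measu.aestronglyMeasurable h₂.aemeasurable).1 this
  have hint3 : Integrable (fun x => u (T₃ x)) (tsμ ν ΦA ΦB) := by
    have : Integrable u ((tsμ ν ΦA ΦB).map T₃) := by rw [hT₃]; exact hint
    exact (integrable_map_measure h.measu.aestronglyMeasurable h₃.aemeasurable).1 this
  have e2 : ∫ x, u (T₂ x) ∂(tsμ ν ΦA ΦB) = ∫ x, u x ∂(tsμ ν ΦA ΦB) := by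
    have := integral_map (μ := tsμ ν ΦA ΦB) h₂.aemeasurable (f := u)
      h.measu.aestronglyMeasurable
    rw [hT₂] at this; exact this.symm
  have e3 : ∫ x, u (T₃ x) ∂(tsμ ν ΦA ΦB) = ∫ x, u x ∂(tsμ ν ΦA ΦB) := by
    have := integral_map (μ := tsμ ν ΦA ΦB) h₃.aemeasurable (f := u)
      h.measu.aestronglyMeasurable
    rw [hT₃] at this; exact this.symm
  have hFint : Integrable (fun x => u x + u (T₂ x) + u (T₃ x)) (tsμ ν ΦA ΦB) :=
    (hint.add hint2).add hint3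
  have hFval : ∫ x, (u x + u (T₂ x) + u (T₃ x)) ∂(tsμ ν ΦA ΦB) =
      3 * ∫ x, u x ∂(tsμ ν ΦA ΦB) := by
    have a1 : ∫ x, (u x + u (T₂ x) + u (T₃ x)) ∂(tsμ ν ΦA ΦB) =
        ∫ x, (u x + u (T₂ x)) ∂(tsμ ν ΦA ΦB) + ∫ x, u (T₃ x) ∂(tsμ ν ΦA ΦB) :=
      integral_add (hint.add hint2) hint3
    have a2 : ∫ x, (u x + u (T₂ x)) ∂(tsμ ν ΦA ΦB) =
        ∫ x, u x ∂(tsμ ν ΦA ΦB) + ∫ x, u (T₂ x) ∂(tsμ ν ΦA ΦB) :=
      integral_add hint hint2
    rw [a1, a2, e2, e3]; ring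
  have hle : (fun x => ENNReal.ofReal (u x + u (T₂ x) + u (T₃ x))) ≤ᵐ[tsμ ν ΦA ΦB]
      fun x => c (x, T₂ x, T₃ x) := by
    filter_upwards [hae, hS2, hS3] with x hx h2x h3x
    exact h.adm x (T₂ x) (T₃ x) hx h2x h3x
  have hval_le : tsVal ν ΦA ΦB u ≤
      ∫⁻ x, ENNReal.ofReal (u x + u (T₂ x) + u (T₃ x)) ∂(tsμ ν ΦA ΦB) := by
    unfold tsVal; rw [← hFval]
    exact ofReal_integral_le_lintegral_ofReal' _ _ hFint
  have hmeas_c : Measurable fun x => c (x, T₂ x, T₃ x) :=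
    h.measc.comp (measurable_id.prodMk (h₂.prodMk h₃))
  have hfin : ∫⁻ x, ENNReal.ofReal (u x + u (T₂ x) + u (T₃ x)) ∂(tsμ ν ΦA ΦB) ≠ ⊤ :=
    ne_top_of_le_ne_top ENNReal.ofReal_ne_top ((lintegral_mono_ae hle).trans hcon)
  have heq := ae_eq_of_ae_le_of_lintegral_le hle hfin hmeas_c.aemeasurable (hcon.trans hval_le)
  filter_upwards [heq, hS3] with x hx h3 using ⟨hx.symm, h3⟩

/-- `tsΛ ν` lives on `Y × [0,1)`. -/
theorem tsΛ_ae_mem : ∀ᵐ p ∂(tsΛ ν), p.2 ∈ Ico (0:ℝ) 1 := by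
  have h1 : ∀ᵐ t ∂(volume.restrict (Ico (0:ℝ) 1)), t ∈ Ico (0:ℝ) 1 :=
    ae_restrict_mem measurableSet_Ico
  exact Measure.quasiMeasurePreserving_snd.ae h1

theorem tsΛ_univ (hν : ν univ = 1 / 3) : tsΛ ν univ = 1 / 3 := by
  unfold tsΛ
  rw [← univ_prod_univ, Measure.prod_prod, hν, Measure.restrict_apply_univ, Real.volume_Ico]
  simp

/-- periodicity in the form used below -/
theorem perA_fract (h : TwoShellHyp ν ΦA ΦB g c u) (b : Y) (t : ℝ) :
    ΦA (b, Int.fract t) = ΦA (b, t) := by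
  have hper : Function.Periodic (fun t => ΦA (b, t)) 1 := fun t => h.perA b t
  have h1 := hper.sub_int_mul_eq (x := t) ⌊t⌋
  have e : Int.fract t = t - (⌊t⌋ : ℝ) * 1 := by rw [mul_one]; rfl
  rw [e]; exact h1

/-- (TS-3), with the needed facts of package TS-B as hypotheses. -/
theorem ts_strict_of (h : TwoShellHyp ν ΦA ΦB g c u)
    (hmeasA : MeasurableSet (range ΦA))
    (hae : ∀ᵐ x ∂(tsμ ν ΦA ΦB), x ∈ tsS ΦA ΦB)
    (hint : Integrable u (tsμ ν ΦA ΦB))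
    (hinv : ∃ iA : E → Y × ℝ, Measurable iA ∧
      ∀ b t, t ∈ Ico (0:ℝ) 1 → iA (ΦA (b, t)) = (b, t))
    (hrot : ∀ F : Y × ℝ → ℝ≥0∞, Measurable F → (∀ b t, F (b, t + 1) = F (b, t)) →
      ∫⁻ p, F (p.1, p.2 + g p.1) ∂(tsΛ ν) = ∫⁻ p, F p ∂(tsΛ ν))
    (T₂ T₃ : E → E) (h₂ : Measurable T₂) (h₃ : Measurable T₃)
    (hT₂ : (tsμ ν ΦA ΦB).map T₂ = tsμ ν ΦA ΦB) (hT₃ : (tsμ ν ΦA ΦB).map T₃ = tsμ ν ΦA ΦB) :
    tsVal ν ΦA ΦB u < ∫⁻ x, c (x, T₂ x, T₃ x) ∂(tsμ ν ΦA ΦB) := by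
  by_contra hcon
  rw [not_lt] at hcon
  have hC := ts_contact_ae ν ΦA ΦB g c u h hae hint T₂ T₃ h₂ h₃ hT₂ hT₃ hcon
  -- transfer of a.e. statements to parameter space
  have hΛA : ∀ {P : E → Prop}, (∀ᵐ x ∂(tsμ ν ΦA ΦB), P x) → ∀ᵐ p ∂(tsΛ ν), P (ΦA p) := by
    intro P hP
    have hle : (tsΛ ν).map ΦA ≤ tsμ ν ΦA ΦB := Measure.le_add_right le_rfl
    exact ae_of_ae_map h.measA.aemeasurable (hP.filter_mono (ae_mono hle))
  have hΛB : ∀ {P : E → Prop}, (∀ᵐ x ∂(tsμ ν ΦA ΦB), P x) → ∀ᵐ p ∂(tsΛ ν), P (ΦB p) := by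
    intro P hP
    have hle : (2 : ℝ≥0∞) • (tsΛ ν).map ΦB ≤ tsμ ν ΦA ΦB := Measure.le_add_left le_rfl
    have h2 : ∀ᵐ y ∂((2 : ℝ≥0∞) • (tsΛ ν).map ΦB), P y := hP.filter_mono (ae_mono hle)
    have h2' : ∀ᵐ y ∂((tsΛ ν).map ΦB), P y := by
      rw [ae_iff] at h2 ⊢
      rw [Measure.smul_apply, smul_eq_mul] at h2
      exact (mul_eq_zero.1 h2).resolve_left (by norm_num)
    exact ae_of_ae_map h.measB.aemeasurable h2'
  have hα : ∀ᵐ p ∂(tsΛ ν), T₂ (ΦA p) ∉ range ΦA := by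
    filter_upwards [hΛA hC] with p hp
    rintro ⟨q, hq⟩
    have := h.rigAA p q (T₃ (ΦA p)) hp.2
    rw [hq] at this
    exact this hp.1
  have hβ : ∀ᵐ p ∂(tsΛ ν), T₂ (ΦB p) ∈ range ΦA →
      T₂ (ΦB p) = ΦA p ∨ T₂ (ΦB p) = ΦA (p.1, p.2 - g p.1) := by
    filter_upwards [hΛB hC] with p hp
    rintro ⟨q, hq⟩
    have := h.rigBA p.1 p.2 q (T₃ (ΦB p)) hp.2 (by rw [hq]; exact hp.1)
    rw [hq] at this
    exact this
  have hI := tsΛ_ae_mem ν
  have hμ_apply : ∀ M : Set E, MeasurableSet M →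
      tsμ ν ΦA ΦB M = tsΛ ν (ΦA ⁻¹' M) + 2 * tsΛ ν (ΦB ⁻¹' M) := by
    intro M hM
    simp only [tsμ, Measure.add_apply, Measure.smul_apply, smul_eq_mul,
      Measure.map_apply h.measA hM, Measure.map_apply h.measB hM]
  obtain ⟨iA, hiA, hiA'⟩ := hinv
  set r : Y × ℝ → Y × ℝ := fun p => (p.1, Int.fract (p.2 - g p.1)) with hr
  set r' : Y × ℝ → Y × ℝ := fun p => (p.1, Int.fract (p.2 + g p.1)) with hr'
  have hgm : Measurable fun p : Y × ℝ => g p.1 := h.measg.comp measurable_fst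
  have hr_meas : Measurable r :=
    measurable_fst.prodMk (measurable_fract.comp (measurable_snd.sub hgm))
  have hr'_meas : Measurable r' :=
    measurable_fst.prodMk (measurable_fract.comp (measurable_snd.add hgm))
  set E0 : Set (Y × ℝ) := {p | T₂ (ΦB p) = ΦA p} with hE0
  set E1 : Set (Y × ℝ) := {p | T₂ (ΦB p) = ΦA (p.1, p.2 - g p.1)} \ E0 with hE1
  have hE0m : MeasurableSet E0 := measurableSet_eq_fun (h₂.comp h.measB) h.measA
  have hE1m : MeasurableSet E1 :=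
    (measurableSet_eq_fun (h₂.comp h.measB)
      (h.measA.comp (measurable_fst.prodMk (measurable_snd.sub hgm)))).diff hE0m
  have hfr : ∀ x : ℝ, Int.fract x ∈ Ico (0:ℝ) 1 := fun x => ⟨Int.fract_nonneg x, Int.fract_lt_one x⟩
  -- the density-doubling identity
  have key : ∀ W : Set (Y × ℝ), MeasurableSet W →
      tsΛ ν W = 2 * (tsΛ ν (E0 ∩ W) + tsΛ ν (E1 ∩ r ⁻¹' W)) := by
    intro W hW
    set M : Set E := range ΦA ∩ iA ⁻¹' W with hM
    have hMm : MeasurableSet M := hmeasA.inter (hiA hW)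
    have e1 : tsμ ν ΦA ΦB M = tsΛ ν W := by
      rw [hμ_apply M hMm]
      have hB0 : ΦB ⁻¹' M = ∅ := by
        ext p
        simp only [mem_preimage, hM, mem_inter_iff, mem_range, mem_empty_iff_false, iff_false]
        rintro ⟨⟨q, hq⟩, -⟩
        exact h.disj q p hq
      rw [hB0, measure_empty, mul_zero, add_zero]
      apply measure_congr
      filter_upwards [hI] with p hp
      apply propext
      constructor
      · rintro ⟨-, hpW⟩
        have hpW' : iA (ΦA p) ∈ W := hpW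
        rw [hiA' p.1 p.2 hp] at hpW'
        exact hpW'
      · intro hpW
        refine ⟨mem_range_self p, ?_⟩
        show iA (ΦA p) ∈ W
        rw [hiA' p.1 p.2 hp]
        exact hpW
    have e2 : tsμ ν ΦA ΦB M = 2 * (tsΛ ν (E0 ∩ W) + tsΛ ν (E1 ∩ r ⁻¹' W)) := by
      have e3 : tsμ ν ΦA ΦB M = tsμ ν ΦA ΦB (T₂ ⁻¹' M) := by
        conv_lhs => rw [← hT₂]
        exact Measure.map_apply h₂ hMm
      rw [e3, hμ_apply _ (h₂ hMm)]
      have hA0 : tsΛ ν (ΦA ⁻¹' (T₂ ⁻¹' M)) = 0 := by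
        rw [measure_eq_zero_iff_ae_notMem]
        filter_upwards [hα] with p hp
        intro hpM
        exact hp hpM.1
      rw [hA0, zero_add]
      congr 1
      have hdisj : Disjoint (E0 ∩ W) (E1 ∩ r ⁻¹' W) := by
        rw [Set.disjoint_left]
        rintro p ⟨hp0, -⟩ ⟨hp1, -⟩
        exact hp1.2 hp0
      rw [← measure_union hdisj (hE1m.inter (hr_meas hW))]
      apply measure_congr
      filter_upwards [hI, hβ] with p hp hβp
      apply propext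
      constructor
      · intro hpM
        have hpW : iA (T₂ (ΦB p)) ∈ W := hpM.2
        by_cases hp0 : p ∈ E0
        · left
          refine ⟨hp0, ?_⟩
          have hp0' : T₂ (ΦB p) = ΦA p := hp0
          rw [hp0', hiA' p.1 p.2 hp] at hpW
          exact hpW
        · rcases hβp hpM.1 with h0 | h1
          · exact absurd h0 hp0
          · right
            refine ⟨⟨h1, hp0⟩, ?_⟩
            rw [h1, ← perA_fract ν ΦA ΦB g c u h, hiA' _ _ (hfr _)] at hpW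
            exact hpW
      · rintro (⟨h0, hpW⟩ | ⟨⟨h1, -⟩, hpW⟩)
        · have h0' : T₂ (ΦB p) = ΦA p := h0
          refine ⟨⟨p, h0'.symm⟩, ?_⟩
          show iA (T₂ (ΦB p)) ∈ W
          rw [h0', hiA' p.1 p.2 hp]
          exact hpW
        · have h1' : T₂ (ΦB p) = ΦA (p.1, p.2 - g p.1) := h1
          refine ⟨⟨(p.1, p.2 - g p.1), h1'.symm⟩, ?_⟩
          show iA (T₂ (ΦB p)) ∈ W
          rw [h1', ← perA_fract ν ΦA ΦB g c u h, hiA' _ _ (hfr _)]
          exact hpW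
    rw [← e1, e2]
  have hΛuniv : tsΛ ν univ = 1 / 3 := tsΛ_univ ν h.mass
  have hfinΛ : ∀ s : Set (Y × ℝ), tsΛ ν s ≠ ⊤ := by
    intro s
    refine ne_top_of_le_ne_top ?_ (measure_mono (subset_univ s))
    rw [hΛuniv]; norm_num
  have double_zero : ∀ a b : ℝ≥0∞, a ≠ ⊤ → a = 2 * (a + b) → a = 0 := by
    intro a b ha hab
    by_contra hne
    have h2 : 2 * a ≤ 1 * a := by
      calc 2 * a ≤ 2 * (a + b) := by gcongr; exact le_self_add
        _ = 1 * a := by rw [one_mul]; exact hab.symm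
    have h3 := (ENNReal.mul_le_mul_iff_left hne ha).1 h2
    norm_num at h3
  -- W = E0
  have h0 : tsΛ ν E0 = 0 := by
    have hk := key E0 hE0m
    rw [inter_self] at hk
    exact double_zero _ _ (hfinΛ _) hk
  -- W = r' ⁻¹' E1
  have h1 : tsΛ ν E1 = 0 := by
    have hk := key (r' ⁻¹' E1) (hr'_meas hE1m)
    have hz : tsΛ ν (E0 ∩ r' ⁻¹' E1) = 0 := measure_mono_null inter_subset_left h0
    have hr1 : tsΛ ν (E1 ∩ r ⁻¹' (r' ⁻¹' E1)) = tsΛ ν E1 := by
      apply measure_congr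
      filter_upwards [hI] with p hp
      have hrr : r' (r p) = p := by
        have : Int.fract (Int.fract (p.2 - g p.1) + g p.1) = p.2 := by
          have e : Int.fract (p.2 - g p.1) + g p.1 = p.2 - (⌊p.2 - g p.1⌋ : ℝ) := by
            rw [Int.fract]; ring
          rw [e, Int.fract_sub_intCast, Int.fract_eq_self.2 hp]
        show (p.1, Int.fract (Int.fract (p.2 - g p.1) + g p.1)) = p
        rw [this]
      apply propext
      constructor
      · exact fun hx => hx.1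
      · intro hx
        refine ⟨hx, ?_⟩
        show r' (r p) ∈ E1
        rw [hrr]; exact hx
    have hrot' : tsΛ ν (r' ⁻¹' E1) = tsΛ ν E1 := by
      set F : Y × ℝ → ℝ≥0∞ := fun p => E1.indicator (fun _ => (1 : ℝ≥0∞)) (p.1, Int.fract p.2)
        with hF
      have hFm : Measurable F :=
        (measurable_const.indicator hE1m).comp
          (measurable_fst.prodMk (measurable_fract.comp measurable_snd))
      have hFper : ∀ b t, F (b, t + 1) = F (b, t) := by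
        intro b t
        simp only [hF, Int.fract_add_one]
      have hrotF := hrot F hFm hFper
      have eL : ∫⁻ p, F (p.1, p.2 + g p.1) ∂(tsΛ ν) = tsΛ ν (r' ⁻¹' E1) := by
        rw [← lintegral_indicator_one (hr'_meas hE1m)]
        rfl
      have eR : ∫⁻ p, F p ∂(tsΛ ν) = tsΛ ν E1 := by
        rw [← lintegral_indicator_one hE1m]
        apply lintegral_congr_ae
        filter_upwards [hI] with p hp
        simp only [hF, Int.fract_eq_self.2 hp]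
        rfl
      rw [← eL, hrotF, eR]
    rw [hz, zero_add, hr1, hrot'] at hk
    have := double_zero (tsΛ ν E1) 0 (hfinΛ _) (by rw [add_zero]; exact hk)
    exact this
  -- W = univ
  have hk := key univ MeasurableSet.univ
  rw [inter_univ, preimage_univ, inter_univ, h0, h1, add_zero, mul_zero, hΛuniv] at hk
  norm_num at hk

/-- (TS-3) no Monge pair attains `tsVal` (density-doubling / parity argument). -/
theorem ts_strict (h : TwoShellHyp ν ΦA ΦB g c u) (T₂ T₃ : E → E) (h₂ : Measurable T₂)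
    (h₃ : Measurable T₃) (hT₂ : (tsμ ν ΦA ΦB).map T₂ = tsμ ν ΦA ΦB)
    (hT₃ : (tsμ ν ΦA ΦB).map T₃ = tsμ ν ΦA ΦB) :
    tsVal ν ΦA ΦB u < ∫⁻ x, c (x, T₂ x, T₃ x) ∂(tsμ ν ΦA ΦB) := by
  obtain ⟨iA, iB, hiA, -, hiA', -⟩ := Crest.Agent.Helper62.ts_inv ν ΦA ΦB g c u h
  exact ts_strict_of ν ΦA ΦB g c u h (Crest.Agent.Helper62.ts_meas_range ν ΦA ΦB g c u h).1
    (Crest.Agent.Helper62.ts_ae_mem ν ΦA ΦB g c u h)
    (Crest.Agent.Helper62.ts_integrable_u ν ΦA ΦB g c u h)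
    ⟨iA, hiA, hiA'⟩ (fun F hF hper => Crest.Agent.Helper62.ts_rot ν F hF hper g h.measg)
    T₂ T₃ h₂ h₃ hT₂ hT₃

end Crest.Agent.Helper42
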